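import Vale.Agent.Lib.P197.Staircase

/-!
# P197: a block criterion for constituents of the tensor square of the staircase Specht module
-/

namespace Vale.Agent.Results.P197.SaxlBlocks

open Vale.Agent.P197

/-- If, row by row, `ρ_m = ρ_j + ∑ (1^{|β_i|}) + ∑ γ_i = ρ_j + ∑ β_i + ∑ (1^{|γ_i|})` and
`ν = (1^{N_j}) + ∑ β_i' + ∑ γ_i'` then `g(ρ_m, ρ_m, ν) > 0`. -/
theorem result (m j : ℕ) (ι κ : Type) (s : Finset ι) (s' : Finset κ)
    (β : ι → YoungDiagram) (γ : κ → YoungDiagram) (ν : YoungDiagram)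
    (h1 : ∀ r, (j - r) + ∑ i ∈ s, (if r < (β i).card then 1 else 0)
      + ∑ i ∈ s', (γ i).rowLen r = m - r)
    (h2 : ∀ r, (j - r) + ∑ i ∈ s, (β i).rowLen r
      + ∑ i ∈ s', (if r < (γ i).card then 1 else 0) = m - r)
    (h3 : ∀ r, ν.rowLen r = (if r < j * (j + 1) / 2 then 1 else 0)
      + ∑ i ∈ s, (β i).colLen r + ∑ i ∈ s', (γ i).colLen r) :
    0 < kronecker (m * (m + 1) / 2) (staircase m) (staircase m) ν :=
  kronecker_staircase_pos_of_blocks m j s s' β γ ν h1 h2 h3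

end Vale.Agent.Results.P197.SaxlBlocks
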